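import Vale.Agent.Lib.P062.Thr.Core
import Vale.Agent.Lib.P062.Thr.NData.N3

namespace Vale.Agent.Lib.P062.Thr

def FN_3913 : Fact := (0x1c000000200000000000000000000, 0x0, 0x6a00dd01fe0fee1ffc7ffe7ffcfff9fff)
theorem GN_3913 : Good FN_3913.1 FN_3913.2.1 FN_3913.2.2 :=
  good_of_check (data := 0x5f32c000c361338000cd000fb7d41c00181000ff00003000c1000007d41c000ff7f4280018100109) (env := [FN_3912]) (f := 2048) (envGood_cons GN_3912 envGood_nil) (by decide +kernel)

end Vale.Agent.Lib.P062.Thr
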